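import Vale.Agent.Cyl.Group

open MeasureTheory Set

namespace Vale.Agent.Results.P243.FewAxes

open Vale.Agent.Cyl

/-- A finite covering of `K` by cylinders: unit axis vectors `u i`, bases `B i` in the plane
orthogonal to `u i` with finite area, and `K ⊆ ⋃ (B i + ℝ u i)`. -/
def IsCylinderCovering (K : Set E3) {m : ℕ} (u : Fin m → E3) (B : Fin m → Set E3) : Prop :=
  (∀ i, ‖u i‖ = 1) ∧ (∀ i, ∀ x ∈ B i, inner ℝ (u i) x = 0) ∧
    (∀ i, μHE[2] (B i) ≠ ⊤) ∧ K ⊆ ⋃ i, cylinder (B i) (u i)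

/-- The directionwise relative area of the covering. -/
noncomputable def relArea (K : Set E3) {m : ℕ} (u : Fin m → E3) (B : Fin m → Set E3) : ℝ :=
  ∑ i, (μHE[2] (B i)).toReal / (μHE[2] (shadow (u i) K)).toReal

/-- The smallest area of an orthogonal projection of `K` onto a plane. -/
noncomputable def minShadow (K : Set E3) : ℝ :=
  ⨅ v : {v : E3 // ‖v‖ = 1}, (μHE[2] (shadow v.1 K)).toReal

/-- The number of different axis lines of the covering. -/
noncomputable def numAxes {m : ℕ} (u : Fin m → E3) : ℕ :=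
  (Set.range fun i => Submodule.span ℝ {u i}).ncard

lemma relArea_nonneg (K : Set E3) {m : ℕ} (u : Fin m → E3) (B : Fin m → Set E3) :
    0 ≤ relArea K u B :=
  Finset.sum_nonneg fun _ _ => div_nonneg ENNReal.toReal_nonneg ENNReal.toReal_nonneg

lemma minShadow_nonneg (K : Set E3) : 0 ≤ minShadow K :=
  Real.iInf_nonneg fun _ => ENNReal.toReal_nonneg

lemma minShadow_le (K : Set E3) {v : E3} (hv : ‖v‖ = 1) :
    minShadow K ≤ (μHE[2] (shadow v K)).toReal :=
  ciInf_le (f := fun v : {v : E3 // ‖v‖ = 1} => (μHE[2] (shadow v.1 K)).toReal)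
    ⟨0, by rintro _ ⟨v, rfl⟩; exact ENNReal.toReal_nonneg⟩ ⟨v, hv⟩

lemma minShadow_mul_relArea_le (K : Set E3) {m : ℕ} (u : Fin m → E3) (B : Fin m → Set E3)
    (hu : ∀ i, ‖u i‖ = 1) :
    minShadow K * relArea K u B ≤ ∑ i, (μHE[2] (B i)).toReal := by
  rw [relArea, Finset.mul_sum]
  apply Finset.sum_le_sum
  intro i _
  rcases eq_or_ne (μHE[2] (shadow (u i) K)).toReal 0 with h | h
  · rw [h, div_zero, mul_zero]; exact ENNReal.toReal_nonneg
  · have h1 := minShadow_le K (hu i)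
    have h2 : 0 < (μHE[2] (shadow (u i) K)).toReal :=
      lt_of_le_of_ne ENNReal.toReal_nonneg h.symm
    rw [mul_div_assoc', div_le_iff₀ h2, mul_comm]
    exact mul_le_mul_of_nonneg_left h1 ENNReal.toReal_nonneg

lemma third {R x : ℝ} (hx : 0 < x) (hx1 : x ≤ 1) 
    (h : ∀ h : ℝ, 0 ≤ h → h ≤ 1 → 1 ≤ 3 * (1 - h) * R + h ^ 3 / x ^ 2) : 1 / 3 + x / 8 ≤ R := by
  set c : ℝ := √(1 / 3) with hc
  have hc2 : c ^ 2 = 1 / 3 := Real.sq_sqrt (by norm_num)
  have hc0 : 0 < c := Real.sqrt_pos.2 (by norm_num)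
  have hc1 : c ≤ 3 / 5 := by
    by_contra hcon; push Not at hcon; nlinarith
  have hc3 : 57 / 100 ≤ c := by
    by_contra hcon; push Not at hcon; nlinarith
  have h1 := h (c * x) (by positivity) (by nlinarith)
  have h2 : (c * x) ^ 3 / x ^ 2 = c * x / 3 := by
    field_simp
    linarith
  rw [h2] at h1
  have h3 : 0 < 1 - c * x := by nlinarith
  -- 3 (1 - c x) R ≥ 1 - c x / 3
  have h4 : 3 * (1 - c * x) * (1 / 3 + x / 8) ≤ 1 - c * x / 3 := by nlinarith
  have h5 : 3 * (1 - c * x) * (1 / 3 + x / 8) ≤ 3 * (1 - c * x) * R := by linarith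
  exact le_of_mul_le_mul_left h5 (by positivity)

theorem result (K : Set E3) (hK : Convex ℝ K) (hKc : IsCompact K) (hKi : (interior K).Nonempty)
    (m : ℕ) (u : Fin m → E3) (B : Fin m → Set E3) (hcov : IsCylinderCovering K u B) :
    (numAxes u ≤ 2 →
      1 / 2 ≤ relArea K u B ∧ (1 / 2) * minShadow K ≤ ∑ i, (μHE[2] (B i)).toReal) ∧
    1 / 3 + 1 / (8 * √(numAxes u : ℝ)) ≤ relArea K u B ∧
    ∀ h ∈ Set.Icc (0 : ℝ) 1, 1 ≤ 3 * (1 - h) * relArea K u B + numAxes u * h ^ 3 := by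
  obtain ⟨hu, hB, hBt, hc⟩ := hcov
  have hmain : ∀ h ∈ Set.Icc (0 : ℝ) 1,
      1 ≤ 3 * (1 - h) * relArea K u B + numAxes u * h ^ 3 := fun h hh =>
    cover_bound hK hKc hKi u B hu hB hBt hc hh.1 hh.2
  have hpos : 0 < numAxes u := by
    by_contra hcon
    have h0 : numAxes u = 0 := by omega
    have hm := hmain 1 ⟨by norm_num, le_rfl⟩
    rw [h0] at hm
    norm_num at hm
  have hR := relArea_nonneg K u B
  refine ⟨fun h2 => ?_, ?_, hmain⟩
  · have hhalf : 1 / 2 ≤ relArea K u B := by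
      have hm := hmain (1 / 2) ⟨by norm_num, by norm_num⟩
      have h3 : (numAxes u : ℝ) ≤ 2 := by exact_mod_cast h2
      linarith
    refine ⟨hhalf, ?_⟩
    calc (1 / 2) * minShadow K ≤ relArea K u B * minShadow K :=
          mul_le_mul_of_nonneg_right hhalf (minShadow_nonneg K)
      _ = minShadow K * relArea K u B := mul_comm _ _
      _ ≤ _ := minShadow_mul_relArea_le K u B hu
  · have hk : (1 : ℝ) ≤ numAxes u := by exact_mod_cast hpos
    have hs : 0 < √(numAxes u : ℝ) := Real.sqrt_pos.2 (by linarith)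
    have hs1 : 1 ≤ √(numAxes u : ℝ) := by
      rw [Real.one_le_sqrt]; exact hk
    have h3 := third (R := relArea K u B) (x := 1 / √(numAxes u : ℝ)) (by positivity)
      (by rw [div_le_one hs]; exact hs1) (by
        intro h h0 h1
        have hm := hmain h ⟨h0, h1⟩
        have e : h ^ 3 / (1 / √(numAxes u : ℝ)) ^ 2 = numAxes u * h ^ 3 := by
          rw [div_pow, one_pow, Real.sq_sqrt (by positivity)]
          field_simp
        rw [e]; exact hm)
    have e2 : 1 / √(numAxes u : ℝ) / 8 = 1 / (8 * √(numAxes u : ℝ)) := by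
      field_simp
    rw [e2] at h3
    exact h3

end Vale.Agent.Results.P243.FewAxes
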